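import Crest.Agent.R192.Iface
import Crest.Agent.R192.Br
import Crest.Agent.R192.Ker
import Crest.Agent.R192.Lab

/-!
R192/G/AA: the mean truncated distance `AA` (finite representation, continuity, periodicity, triangle inequality,
diagonal estimate).
-/

set_option autoImplicit false

open MeasureTheory Complex Filter Topology
open scoped ContDiff

noncomputable section

namespace Crest.Agent.R192.G
variable {G : Type} [Group G] {n : ℕ}

theorem contDiff_two {B : Type} [NormedAddCommGroup B] [NormedSpace ℝ B] (L : Len G) (R : ℕ) (g : G)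
    (x : Fin (n + 1) → G) {κ κ' : ℝ → ℝ} (hκ : Adm κ) (hκ' : Adm κ') {σ σ' : B → ℝ}
    {v v' : B → Fin (n + 1) → ℝ} (hσ : ContDiff ℝ ∞ σ) (hv : ContDiff ℝ ∞ v) (hσ' : ContDiff ℝ ∞ σ')
    (hv' : ContDiff ℝ ∞ v') :
    ContDiff ℝ ∞ fun p => bs g x (σ p) (v p) κ
      (fun y => bs g x (σ' p) (v' p) κ' fun y' => (dT L R y y' : ℂ)) :=
  contDiff_bs g x hκ hσ hv fun y =>
    contDiff_bs g x hκ' hσ' hv' (F := fun _ y' => (dT L R y y' : ℂ)) fun _ => contDiff_const

theorem continuous_two (L : Len G) (R : ℕ) (g : G) (x : Fin (n + 1) → G) (v : Fin (n + 1) → ℝ)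
    {κ κ' : ℝ → ℝ} (hκ : Adm κ) (hκ' : Adm κ') :
    Continuous fun σ : ℝ => bs g x σ v κ (fun y => bs g x σ v κ' fun y' => (dT L R y y' : ℂ)) :=
  (contDiff_two L R g x hκ hκ' (σ := id) (σ' := id) (v := fun _ => v) (v' := fun _ => v) contDiff_id
    contDiff_const contDiff_id contDiff_const).continuous

theorem continuous_AA (L : Len G) (R : ℕ) (g : G) (x : Fin (n + 1) → G) (v : Fin (n + 1) → ℝ)
    {κ κ' : ℝ → ℝ} (hκ : Adm κ) (hκ' : Adm κ') : Continuous fun σ : ℝ => AA L R κ κ' (bs g x σ v) :=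
  Complex.continuous_re.comp (continuous_two L R g x v hκ hκ')

theorem AA_act (L : Len G) (R : ℕ) (κ κ' : ℝ → ℝ) (c : G) (β : Pth G) :
    AA L R κ κ' (act c β) = AA L R κ κ' β := by
  simp only [AA, act, dT_mul]

theorem periodic_AA (L : Len G) (R : ℕ) (g : G) (x : Fin (n + 1) → G) (v : Fin (n + 1) → ℝ)
    (κ κ' : ℝ → ℝ) : Function.Periodic (fun σ : ℝ => AA L R κ κ' (bs g x σ v)) 1 := fun σ => by
  simp only [bs_per, AA_act]

theorem AA_eq_sum (L : Len G) (R : ℕ) (g : G) (x : Fin (n + 1) → G) {σ : ℝ} (hσ : σ ∈ Set.Icc (0 : ℝ) 1)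
    {v : Fin (n + 1) → ℝ} (hv : Ord v) {κ κ' : ℝ → ℝ} (hκ : Adm κ) (hκ' : Adm κ') :
    AA L R κ κ' (bs g x σ v) =
      ∑ p, ∑ p', dT L R (pt g x p) (pt g x p') * wt κ' σ v p' * wt κ σ v p := by
  unfold AA
  rw [bs_eq_sum g x hσ hv hκ]
  simp only [bs_eq_sum g x hσ hv hκ', Finset.sum_mul]
  rw [← Complex.ofReal_re (∑ p, ∑ p', dT L R (pt g x p) (pt g x p') * wt κ' σ v p' * wt κ σ v p)]
  push_cast
  rfl

/-- triangle inequality for mean distances -/
theorem sum_triangle {ι : Type} [Fintype ι] (d : ι → ι → ℝ) (hd : ∀ i j k, d i j ≤ d i k + d j k)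
    (a b z : ι → ℝ) (ha : ∀ i, 0 ≤ a i) (hb : ∀ i, 0 ≤ b i) (hz : ∀ i, 0 ≤ z i) (ha1 : ∑ i, a i = 1)
    (hb1 : ∑ i, b i = 1) (hz1 : ∑ i, z i = 1) :
    ∑ i, ∑ j, d i j * b j * a i ≤ ∑ i, ∑ k, d i k * z k * a i + ∑ j, ∑ k, d j k * z k * b j := by
  have h1 : ∑ i, ∑ j, d i j * b j * a i = ∑ i, ∑ j, ∑ k, d i j * z k * b j * a i := by
    refine Finset.sum_congr rfl fun i _ => Finset.sum_congr rfl fun j _ => ?_
    rw [← Finset.sum_mul, ← Finset.sum_mul, ← Finset.mul_sum, hz1, mul_one]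
  have h2 : ∑ i, ∑ k, d i k * z k * a i = ∑ i, ∑ j, ∑ k, d i k * z k * b j * a i := by
    refine Finset.sum_congr rfl fun i _ => ?_
    rw [Finset.sum_comm]
    refine Finset.sum_congr rfl fun k _ => ?_
    rw [← Finset.sum_mul, ← Finset.mul_sum, hb1, mul_one]
  have h3 : ∑ j, ∑ k, d j k * z k * b j = ∑ i, ∑ j, ∑ k, d j k * z k * b j * a i := by
    simp only [← Finset.sum_mul, ← Finset.mul_sum, ha1, mul_one]
  rw [h1, h2, h3, ← Finset.sum_add_distrib]
  refine Finset.sum_le_sum fun i _ => ?_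
  rw [← Finset.sum_add_distrib]
  refine Finset.sum_le_sum fun j _ => ?_
  rw [← Finset.sum_add_distrib]
  refine Finset.sum_le_sum fun k _ => ?_
  have := mul_le_mul_of_nonneg_right (hd i j k) (mul_nonneg (mul_nonneg (hz k) (hb j)) (ha i))
  nlinarith [this]

theorem AA_triangle (L : Len G) (R : ℕ) (g : G) (x : Fin (n + 1) → G) {σ : ℝ} (hσ : σ ∈ Set.Icc (0 : ℝ) 1)
    {v : Fin (n + 1) → ℝ} (hv : Ord v) {a b z : ℝ → ℝ} {wa wb wz : ℝ} (ha : Cdf a wa) (hb : Cdf b wb)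
    (hz : Cdf z wz) :
    AA L R a b (bs g x σ v) ≤ AA L R a z (bs g x σ v) + AA L R b z (bs g x σ v) := by
  rw [AA_eq_sum L R g x hσ hv ha.adm hb.adm, AA_eq_sum L R g x hσ hv ha.adm hz.adm,
    AA_eq_sum L R g x hσ hv hb.adm hz.adm]
  refine sum_triangle (fun p p' => dT L R (pt g x p) (pt g x p')) (fun i j k => ?_) _ _ _
    (wt_nonneg ha σ hv) (wt_nonneg hb σ hv) (wt_nonneg hz σ hv) (sum_wt ha hσ hv) (sum_wt hb hσ hv)
    (sum_wt hz hσ hv)
  rw [dT_comm L R (pt g x j)]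
  exact dT_triangle L R _ _ _

/-- the diagonal term -/
theorem sum_diag_le {ι : Type} [Fintype ι] [DecidableEq ι] (d : ι → ι → ℝ) (R : ℝ) (hd : ∀ i j, d i j ≤ R)
    (hd0 : ∀ i, d i i = 0) (a : ι → ℝ) (ha : ∀ i, 0 ≤ a i) (ha1 : ∑ i, a i = 1) :
    ∑ i, ∑ j, d i j * a j * a i ≤ R * ∑ i, a i * (1 - a i) := by
  rw [Finset.mul_sum]
  refine Finset.sum_le_sum fun i _ => ?_
  rw [← Finset.sum_mul, ← Finset.add_sum_erase _ _ (Finset.mem_univ i), hd0, zero_mul, zero_add]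
  have h1 : ∑ j ∈ Finset.univ.erase i, a j = 1 - a i := by
    rw [← ha1, ← Finset.add_sum_erase _ _ (Finset.mem_univ i)]; ring
  have h2 : ∑ j ∈ Finset.univ.erase i, d i j * a j ≤ R * (1 - a i) := by
    rw [← h1, Finset.mul_sum]
    exact Finset.sum_le_sum fun j _ => mul_le_mul_of_nonneg_right (hd i j) (ha j)
  have := mul_le_mul_of_nonneg_right h2 (ha i)
  linarith

theorem integral_psi_le {κ : ℝ → ℝ} {w : ℝ} (hκ : Cdf κ w) (hw : 0 < w) (c : ℝ) :
    ∫ σ in (0 : ℝ)..1, κ (c - σ) * (1 - κ (c - σ)) ≤ w := by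
  have hc : Continuous fun σ : ℝ => κ (c - σ) * (1 - κ (c - σ)) := by
    have := hκ.smooth.continuous
    fun_prop
  rw [intervalIntegral.integral_of_le zero_le_one]
  have hi : Integrable ((Set.Icc (c - w) c).indicator fun _ : ℝ => (1 : ℝ)) volume :=
    (integrable_indicator_iff measurableSet_Icc).2 (integrableOn_const (by simp))
  calc ∫ σ in Set.Ioc (0 : ℝ) 1, κ (c - σ) * (1 - κ (c - σ))
      ≤ ∫ σ in Set.Ioc (0 : ℝ) 1, (Set.Icc (c - w) c).indicator (fun _ : ℝ => (1 : ℝ)) σ := by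
        refine setIntegral_mono (hc.integrableOn_Icc.mono_set Set.Ioc_subset_Icc_self) hi.integrableOn
          fun σ => ?_
        by_cases h : σ ∈ Set.Icc (c - w) c
        · rw [Set.indicator_of_mem h]
          have := hκ.mem_Icc (c - σ)
          nlinarith [this.1, this.2]
        · rw [Set.indicator_of_notMem h]
          rw [Set.mem_Icc, not_and_or, not_le, not_le] at h
          rcases h with h | h
          · rw [hκ.right _ (by linarith)]; simp
          · rw [hκ.left _ (by linarith)]; simp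
    _ ≤ ∫ σ, (Set.Icc (c - w) c).indicator (fun _ : ℝ => (1 : ℝ)) σ :=
        setIntegral_le_integral hi (Eventually.of_forall fun σ => Set.indicator_nonneg (fun _ _ => zero_le_one) σ)
    _ = w := by
        rw [integral_indicator measurableSet_Icc]
        simp [hw.le]

theorem integral_AA_diag_le (L : Len G) (R : ℕ) (g : G) (x : Fin (n + 1) → G) {v : Fin (n + 1) → ℝ}
    (hv : Ord v) {κ : ℝ → ℝ} {w : ℝ} (hκ : Cdf κ w) (hw : 0 < w) :
    ∫ σ in (0 : ℝ)..1, AA L R κ κ (bs g x σ v) ≤ 4 * R * (n + 1) * w := by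
  have hkc := hκ.smooth.continuous
  set ψ : ℝ → ℝ → ℝ := fun c σ => κ (c - σ) * (1 - κ (c - σ)) with hψ
  have hψc : ∀ c, Continuous (ψ c) := fun c => by simp only [hψ]; fun_prop
  have h1 : ∀ σ ∈ Set.Icc (0 : ℝ) 1, AA L R κ κ (bs g x σ v) ≤
      R * ∑ p : Fin 2 × Fin (n + 1), (ψ (rotV v p.2 + p.1.val) σ + ψ (v p.2 + p.1.val) σ) := by
    intro σ hσ
    rw [AA_eq_sum L R g x hσ hv hκ.adm hκ.adm]
    refine (sum_diag_le (fun p p' => dT L R (pt g x p) (pt g x p')) R (fun _ _ => dT_le L R _ _)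
      (fun _ => dT_self L R _) _ (wt_nonneg hκ σ hv) (sum_wt hκ hσ hv)).trans ?_
    refine mul_le_mul_of_nonneg_left (Finset.sum_le_sum fun p _ => ?_) (Nat.cast_nonneg R)
    have hA := hκ.mem_Icc (v p.2 + p.1.val - σ)
    have hB := hκ.mem_Icc (rotV v p.2 + p.1.val - σ)
    simp only [wt, hψ]
    nlinarith [mul_nonneg hA.1 (sub_nonneg.2 hB.2)]
  have hc2 : Continuous fun σ => (R : ℝ) *
      ∑ p : Fin 2 × Fin (n + 1), (ψ (rotV v p.2 + p.1.val) σ + ψ (v p.2 + p.1.val) σ) :=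
    continuous_const.mul (continuous_finsetSum _ fun p _ => (hψc _).add (hψc _))
  refine (intervalIntegral.integral_mono_on zero_le_one
    ((continuous_AA L R g x v hκ.adm hκ.adm).intervalIntegrable _ _) (hc2.intervalIntegrable _ _) h1).trans ?_
  rw [intervalIntegral.integral_const_mul, intervalIntegral.integral_finsetSum
    (f := fun (p : Fin 2 × Fin (n + 1)) σ => ψ (rotV v p.2 + p.1.val) σ + ψ (v p.2 + p.1.val) σ)
    fun p _ => ((hψc _).add (hψc _)).intervalIntegrable _ _]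
  have h3 : ∑ p : Fin 2 × Fin (n + 1), ∫ σ in (0 : ℝ)..1,
      (ψ (rotV v p.2 + p.1.val) σ + ψ (v p.2 + p.1.val) σ) ≤ ∑ _p : Fin 2 × Fin (n + 1), 2 * w := by
    refine Finset.sum_le_sum fun p _ => ?_
    rw [intervalIntegral.integral_add ((hψc _).intervalIntegrable _ _) ((hψc _).intervalIntegrable _ _)]
    have a1 := integral_psi_le hκ hw (rotV v p.2 + p.1.val)
    have a2 := integral_psi_le hκ hw (v p.2 + p.1.val)
    simp only [hψ]
    linarith
  refine (mul_le_mul_of_nonneg_left h3 (Nat.cast_nonneg R)).trans (le_of_eq ?_)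
  simp only [Finset.sum_const, Finset.card_univ, Fintype.card_prod, Fintype.card_fin, nsmul_eq_mul]
  push_cast
  ring

end Crest.Agent.R192.G
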