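import Crest.Agent.R192.G.AA

/-!
R192/G/Main: block G (the metric parts): `stG`, `stG2`.
-/

set_option autoImplicit false

open MeasureTheory Complex Filter Topology
open scoped ContDiff

noncomputable section

namespace Crest.Agent.R192

namespace G
variable {G : Type} [Group G] {n : ℕ}

theorem nice (L : Len G) (R : ℕ) (g : G) {κ₀ κ : ℝ → ℝ} {w₀ w : ℝ} (h₀ : Cdf κ₀ w₀) (h : Cdf κ w) :
    Nice g (PsiK L R κ₀ κ) where
  smooth _ x := contDiff_two L R g x (adm_Kt h₀ h) h₀.adm (by fun_prop) (by fun_prop) (by fun_prop) (by fun_prop)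
  per β β' _ _ := by simp only [PsiK, act, dT_mul]

theorem Dv_re (L : Len G) (R : ℕ) (g : G) {κ₀ κ : ℝ → ℝ} {w₀ w : ℝ} (h₀ : Cdf κ₀ w₀) (h : Cdf κ w)
    (x : Fin (n + 1) → G) (v : Fin (n + 1) → ℝ) :
    (Dv g (PsiK L R κ₀ κ) x v).re =
      (∫ σ in (0 : ℝ)..1, AA L R κ κ₀ (bs g x σ v)) - ∫ σ in (0 : ℝ)..1, AA L R κ₀ κ₀ (bs g x σ v) := by
  have h1 : ∀ σ : ℝ, deriv (fun s => Phi g (PsiK L R κ₀ κ) x s v σ v) σ =
      bs g x σ v κ (fun y => bs g x σ v κ₀ fun y' => (dT L R y y' : ℂ)) -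
        bs g x σ v κ₀ (fun y => bs g x σ v κ₀ fun y' => (dT L R y y' : ℂ)) := by
    intro σ
    have := (hasDerivAt_bs g x σ v (adm_Kt h₀ h)
      (fun y => bs g x σ v κ₀ fun y' => (dT L R y y' : ℂ))).deriv
    rw [deriv_Kt h₀ h, bs_sub_ker g x σ v h₀.adm h.adm, neg_sub] at this
    exact this
  have c1 := continuous_two L R g x v h.adm h₀.adm
  have c2 := continuous_two L R g x v h₀.adm h₀.adm
  unfold Dv
  simp only [h1]
  rw [intervalIntegral.integral_sub (c1.intervalIntegrable _ _) (c2.intervalIntegrable _ _), Complex.sub_re]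
  have e : ∀ f : ℝ → ℂ, Continuous f → (∫ σ in (0 : ℝ)..1, f σ).re = ∫ σ in (0 : ℝ)..1, (f σ).re := fun f hf =>
    (Complex.reCLM.intervalIntegral_comp_comm (hf.intervalIntegrable _ _)).symm
  rw [e _ c1, e _ c2]
  rfl

/-- derivative under a bracket with frozen breakpoints -/
theorem pd_frozen (g : G) (x : Fin (n + 1) → G) (σ : ℝ) (w : Fin (n + 1) → ℝ) {κ : ℝ → ℝ} (hκ : Adm κ)
    {F : (Fin (n + 1) → ℝ) → G → ℂ} {v : Fin (n + 1) → ℝ}
    (hF : ∀ y, DifferentiableAt ℝ (fun w' => F w' y) v) (l : Fin (n + 1)) :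
    pd l (fun w' => bs g x σ w κ (F w')) v = bs g x σ w κ fun y => pd l (fun w' => F w' y) v := by
  obtain ⟨S, hS⟩ := bs_local g x σ w
  have h1 := (hS.self_of_nhds κ hκ).2
  simp only at h1
  simp only [h1]
  unfold pd
  have h2 : HasFDerivAt (fun w' => ∑ r ∈ S, F w' (g ^ r.1 * x r.2) *
      ((κ (rotV w r.2 + r.1 - σ) - κ (w r.2 + r.1 - σ) : ℝ) : ℂ))
      (∑ r ∈ S, ((κ (rotV w r.2 + r.1 - σ) - κ (w r.2 + r.1 - σ) : ℝ) : ℂ) •
        fderiv ℝ (fun w' => F w' (g ^ r.1 * x r.2)) v) v :=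
    HasFDerivAt.fun_sum fun r _ => (hF _).hasFDerivAt.mul_const _
  rw [h2.fderiv]
  simp only [_root_.sum_apply, _root_.smul_apply, smul_eq_mul]
  exact Finset.sum_congr rfl fun r _ => mul_comm _ _

/-- the gradient of the inner bracket -/
def HH (L : Len G) (R : ℕ) (g : G) (κ₀ : ℝ → ℝ) (x : Fin (n + 1) → G) (σ : ℝ) (v : Fin (n + 1) → ℝ)
    (l : Fin (n + 1)) (y : G) : ℂ := pd l (fun w' => bs g x σ w' κ₀ fun y' => (dT L R y y' : ℂ)) v

theorem norm_HH_le (L : Len G) (R : ℕ) (g : G) {κ₀ : ℝ → ℝ} {w₀ : ℝ} (h₀ : Cdf κ₀ w₀) (x : Fin (n + 1) → G)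
    {σ : ℝ} (hσ : σ ∈ Set.Icc (0 : ℝ) 1) {v : Fin (n + 1) → ℝ} (hv : Ord v) (l : Fin (n + 1)) (y : G) :
    ‖HH L R g κ₀ x σ v l y‖ ≤ lam L R g x l * dk κ₀ (v l - σ) := by
  have := norm_pd_bs_le g x hσ hv h₀ (F := fun _ y' => (dT L R y y' : ℂ))
    (fun _ => differentiableAt_const _) l (C := lam L R g x l) (C' := 0) (fun m => by
      rw [← Complex.ofReal_sub, Complex.norm_real, Real.norm_eq_abs]
      exact (abs_dT_sub_le L R _ _ _).trans (dT_pv_le_lam L R x l m)) (fun _ => by simp [pd])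
  rwa [add_zero] at this

theorem pd_Phi (L : Len G) (R : ℕ) (g : G) {κ₀ κ : ℝ → ℝ} {w₀ w : ℝ} (h₀ : Cdf κ₀ w₀) (h : Cdf κ w)
    (x : Fin (n + 1) → G) (σ : ℝ) (u v : Fin (n + 1) → ℝ) (l : Fin (n + 1)) :
    pd l (fun w' => Phi g (PsiK L R κ₀ κ) x σ u σ w') v = bs g x σ u (Kt κ₀ κ) (HH L R g κ₀ x σ v l) :=
  pd_frozen g x σ u (adm_Kt h₀ h) (F := fun w' y => bs g x σ w' κ₀ fun y' => (dT L R y y' : ℂ))
    (fun y => differentiableAt_bs g x σ v h₀.adm (F := fun _ y' => (dT L R y y' : ℂ))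
      fun _ => differentiableAt_const _) l

theorem abs_deriv_Kt_le {κ₀ κ : ℝ → ℝ} {w₀ w : ℝ} (h₀ : Cdf κ₀ w₀) (h : Cdf κ w) (s : ℝ) :
    |deriv (Kt κ₀ κ) s| ≤ 1 := by
  rw [deriv_Kt h₀ h]
  have a := h₀.mem_Icc s
  have b := h.mem_Icc s
  rw [abs_le]
  constructor <;> linarith [a.1, a.2, b.1, b.2]

theorem norm_integral_le_dk {κ₀ : ℝ → ℝ} {w₀ : ℝ} (h₀ : Cdf κ₀ w₀) {f : ℝ → ℂ} {C : ℝ} (hC : 0 ≤ C) (a : ℝ)
    (hf : ∀ σ ∈ Set.Icc (0 : ℝ) 1, ‖f σ‖ ≤ C * dk κ₀ (a - σ)) : ‖∫ σ in (0 : ℝ)..1, f σ‖ ≤ 2 * C := by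
  have hc : Continuous fun σ : ℝ => C * dk κ₀ (a - σ) :=
    continuous_const.mul (h₀.continuous_dk.comp (continuous_const.sub continuous_id))
  refine (intervalIntegral.norm_integral_le_of_norm_le zero_le_one
    (Eventually.of_forall fun σ hσ => hf σ (Set.Ioc_subset_Icc_self hσ)) (hc.intervalIntegrable _ _)).trans ?_
  rw [intervalIntegral.integral_const_mul, mul_comm]
  exact mul_le_mul_of_nonneg_right (h₀.integral_dk_le a) hC

theorem norm_alp_le (L : Len G) (R : ℕ) (g : G) {κ₀ κ : ℝ → ℝ} {w₀ w : ℝ} (h₀ : Cdf κ₀ w₀) (h : Cdf κ w)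
    (x : Fin (n + 1) → G) {v : Fin (n + 1) → ℝ} (hv : Ord v) (l : Fin (n + 1)) :
    ‖alp g (PsiK L R κ₀ κ) n x v l‖ ≤ 4 * lam L R g x l := by
  have hl : 0 ≤ lam L R g x l := zero_le_one.trans (one_le_lam L R x l)
  have := norm_integral_le_dk h₀ (f := fun σ => pd l (fun v' => Phi g (PsiK L R κ₀ κ) x σ v σ v') v)
    (C := 2 * lam L R g x l) (by positivity) (v l) (fun σ hσ => by
      rw [pd_Phi L R g h₀ h, bs_eq_sum g x hσ hv (adm_Kt h₀ h)]
      have hd := mul_nonneg hl (h₀.dk_nonneg (v l - σ))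
      calc ‖∑ p, HH L R g κ₀ x σ v l (pt g x p) * (wt (Kt κ₀ κ) σ v p : ℂ)‖
          ≤ ∑ p, lam L R g x l * dk κ₀ (v l - σ) * |wt (Kt κ₀ κ) σ v p| := by
            refine norm_sum_le_of_le _ fun p _ => ?_
            rw [norm_mul, Complex.norm_real, Real.norm_eq_abs]
            exact mul_le_mul_of_nonneg_right (norm_HH_le L R g h₀ x hσ hv l _) (abs_nonneg _)
        _ ≤ lam L R g x l * dk κ₀ (v l - σ) * 2 := by
            rw [← Finset.mul_sum]
            exact mul_le_mul_of_nonneg_left (sum_abs_wt_le (adm_Kt h₀ h) (abs_deriv_Kt_le h₀ h) σ hv) hd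
        _ = _ := by ring)
  unfold alp
  linarith

theorem pd_pd_Phi (L : Len G) (R : ℕ) (g : G) {κ₀ κ : ℝ → ℝ} {w₀ w : ℝ} (h₀ : Cdf κ₀ w₀) (h : Cdf κ w)
    (x : Fin (n + 1) → G) {σ : ℝ} (hσ : σ ∈ Set.Icc (0 : ℝ) 1) {v : Fin (n + 1) → ℝ} (hv : Ord v)
    (i l : Fin (n + 1)) :
    pd i (fun u => pd l (fun w' => Phi g (PsiK L R κ₀ κ) x σ u σ w') v) v =
      ∑ m : Fin 2, (HH L R g κ₀ x σ v l (g ^ m.val * pv g x i) - HH L R g κ₀ x σ v l (g ^ m.val * x i)) *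
        (deriv (Kt κ₀ κ) (v i + m.val - σ) : ℝ) := by
  simp only [pd_Phi L R g h₀ h]
  rw [pd_bs g x hσ hv (adm_Kt h₀ h) (F := fun _ => HH L R g κ₀ x σ v l) (fun _ => differentiableAt_const _) i]
  simp [pd]

theorem norm_Mx_le (L : Len G) (R : ℕ) (g : G) {κ₀ κ : ℝ → ℝ} {w₀ w : ℝ} (h₀ : Cdf κ₀ w₀) (h : Cdf κ w)
    (x : Fin (n + 1) → G) {v : Fin (n + 1) → ℝ} (hv : Ord v) (i l : Fin (n + 1)) :
    ‖Mx g (PsiK L R κ₀ κ) x v i l‖ ≤ 8 * lam L R g x l := by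
  have hl : 0 ≤ lam L R g x l := zero_le_one.trans (one_le_lam L R x l)
  have := norm_integral_le_dk h₀
    (f := fun σ => pd i (fun u => pd l (fun w' => Phi g (PsiK L R κ₀ κ) x σ u σ w') v) v)
    (C := 4 * lam L R g x l) (by positivity) (v l) (fun σ hσ => by
      rw [pd_pd_Phi L R g h₀ h x hσ hv]
      have hd := mul_nonneg hl (h₀.dk_nonneg (v l - σ))
      refine (norm_sum_le_of_le _ (n := fun _ => 2 * (lam L R g x l * dk κ₀ (v l - σ))) fun m _ => ?_).trans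
        (le_of_eq ?_)
      · rw [norm_mul, Complex.norm_real, Real.norm_eq_abs]
        have a1 := norm_HH_le L R g h₀ x hσ hv l (g ^ m.val * pv g x i)
        have a2 := norm_HH_le L R g h₀ x hσ hv l (g ^ m.val * x i)
        have a3 := (norm_sub_le _ _).trans (add_le_add a1 a2)
        have a4 := mul_le_mul a3 (abs_deriv_Kt_le h₀ h (v i + m.val - σ)) (abs_nonneg _) (by positivity)
        linarith
      · simp only [Finset.sum_const, Finset.card_univ, Fintype.card_fin, nsmul_eq_mul]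
        push_cast
        ring)
  have e : Mx g (PsiK L R κ₀ κ) x v i l = ∫ σ in (0 : ℝ)..1,
    pd i (fun u => pd l (fun w' => Phi g (PsiK L R κ₀ κ) x σ u σ w') v) v := rfl
  rw [e]
  linarith

theorem Mx_eq_zero (L : Len G) (R : ℕ) (g : G) {κ₀ κ : ℝ → ℝ} {w₀ w : ℝ} (h₀ : Cdf κ₀ w₀) (h : Cdf κ w)
    (hw : w₀ ≤ w) (x : Fin (n + 1) → G) {v : Fin (n + 1) → ℝ} (hv : Ord v) (i l : Fin (n + 1))
    (hn : ¬ near w v i l) : Mx g (PsiK L R κ₀ κ) x v i l = 0 := by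
  have e : Mx g (PsiK L R κ₀ κ) x v i l = ∫ σ in (0 : ℝ)..1,
    pd i (fun u => pd l (fun w' => Phi g (PsiK L R κ₀ κ) x σ u σ w') v) v := rfl
  rw [e, intervalIntegral.integral_congr (g := fun _ => 0), intervalIntegral.integral_zero]
  intro σ hσ
  rw [Set.uIcc_of_le zero_le_one] at hσ
  simp only
  rw [pd_pd_Phi L R g h₀ h x hσ hv]
  by_cases hd : dk κ₀ (v l - σ) = 0
  · have h0 : ∀ y, HH L R g κ₀ x σ v l y = 0 := fun y => by
      have := norm_HH_le L R g h₀ x hσ hv l y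
      rw [hd, mul_zero] at this
      exact norm_le_zero_iff.1 this
    simp [h0]
  · have hz : ∀ s, s ≤ 0 ∨ w ≤ s → deriv (Kt κ₀ κ) s = 0 := by
      intro s hs
      rw [deriv_Kt h₀ h]
      rcases hs with hs | hs
      · simp [h₀.left s hs, h.left s hs]
      · simp [h₀.right s (hw.trans hs), h.right s hs]
    have hl : (0 < v l - σ ∧ v l - σ < w₀) ∨ (0 < v l - σ + 1 ∧ v l - σ + 1 < w₀) := by
      by_contra hc
      apply hd
      simp only [not_or, not_and_or, not_lt] at hc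
      unfold dk
      rw [h₀.deriv_eq_zero hc.1, h₀.deriv_eq_zero hc.2, add_zero]
    simp only [near, not_or, not_le, lt_abs] at hn
    obtain ⟨n1, n2, n3⟩ := hn
    refine Finset.sum_eq_zero fun m _ => ?_
    rw [hz, Complex.ofReal_zero, mul_zero]
    by_contra hc
    simp only [not_or, not_le] at hc
    obtain ⟨c1, c2⟩ := hc
    have hm : (m.val : ℝ) = 0 ∨ (m.val : ℝ) = 1 := by
      fin_cases m <;> simp
    rcases hm with hm | hm <;> rw [hm] at c1 c2 <;> rcases hl with ⟨l1, l2⟩ | ⟨l1, l2⟩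
    · rcases n1 with n1 | n1 <;> linarith
    · rcases n3 with n3 | n3 <;> linarith
    · rcases n2 with n2 | n2 <;> linarith
    · rcases n1 with n1 | n1 <;> linarith

theorem AA_k1_shift (L : Len G) (R : ℕ) (P : Par) (g : G) (x : Fin (n + 1) → G) (σ : ℝ)
    (v : Fin (n + 1) → ℝ) (b : ℕ) :
    AA L R (P.k1 b) (P.k1 (b + 1)) (bs g x σ v) = AA L R (P.k1 0) (P.k1 1) (bs g x (σ + b * P.tau) v) := by
  have e1 : (fun s => P.k1 b (s - σ)) = fun s => P.k1 0 (s - (σ + b * P.tau)) := by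
    funext s
    simp only [Par.k1]
    congr 2
    push_cast
    ring
  have e2 : (fun s => P.k1 (b + 1) (s - σ)) = fun s => P.k1 1 (s - (σ + b * P.tau)) := by
    funext s
    simp only [Par.k1]
    congr 2
    push_cast
    ring
  simp only [AA, bs, sh, e1, e2]

theorem AA_p1 (L : Len G) (R : ℕ) {P : Par} (hP : Valid L P) (g : G) (x : Fin (n + 1) → G) {σ : ℝ}
    (hσ : σ ∈ Set.Icc (0 : ℝ) 1) {v : Fin (n + 1) → ℝ} (hv : Ord v) :
    AA L R (P.k1 0) P.kz (bs g x σ v) + AA L R (P.k1 1) P.kz (bs g x σ v) =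
      2 * AA L R P.p1 P.kz (bs g x σ v) := by
  rw [AA_eq_sum L R g x hσ hv (hP.cdf_k1 (Nat.zero_le _)).adm hP.cdf_kz.adm,
    AA_eq_sum L R g x hσ hv (hP.cdf_k1 hP.q_pos).adm hP.cdf_kz.adm,
    AA_eq_sum L R g x hσ hv hP.cdf_p1.adm hP.cdf_kz.adm, ← Finset.sum_add_distrib, Finset.mul_sum]
  refine Finset.sum_congr rfl fun p _ => ?_
  rw [← Finset.sum_add_distrib, Finset.mul_sum]
  refine Finset.sum_congr rfl fun p' _ => ?_
  have : wt P.p1 σ v p = (wt (P.k1 0) σ v p + wt (P.k1 1) σ v p) / 2 := by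
    simp only [wt, Par.p1]; ring
  rw [this]
  ring

end G

theorem stG : StG := by
  intro Γ _ L R g κ₀ κ w₀ w h₀ h hw0 hw
  refine ⟨G.nice L R g h₀ h, fun n x v hv => ⟨?_, G.norm_alp_le L R g h₀ h x hv, fun i l =>
    ⟨G.norm_Mx_le L R g h₀ h x hv i l, G.Mx_eq_zero L R g h₀ h hw x hv i l⟩⟩⟩
  rw [G.Dv_re L R g h₀ h]
  linarith [G.integral_AA_diag_le L R g x hv h₀ hw0]

theorem stG2 : StG2 := by
  intro Γ _ L P g hP n x v hv
  have hk : ∀ b ∈ Finset.range P.q, Continuous fun σ => AA L P.R' (P.k1 b) (P.k1 (b + 1)) (bs g x σ v) :=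
    fun b hb => G.continuous_AA L P.R' g x v (hP.cdf_k1 (Finset.mem_range.1 hb).le).adm
      (hP.cdf_k1 (Finset.mem_range.1 hb)).adm
  have hro := G.continuous_AA L P.R' g x v hP.cdf_kk.adm hP.cdf_kk.adm
  refine ⟨(continuous_finsetSum _ hk).div_const _, hro, ?_, ?_⟩
  · have h01 := G.continuous_AA L P.R' g x v (hP.cdf_k1 (Nat.zero_le _)).adm (hP.cdf_k1 hP.q_pos).adm
    have hp := G.continuous_AA L P.R' g x v hP.cdf_p1.adm hP.cdf_kz.adm
    have h1 : ∀ b : ℕ, ∫ σ in (0 : ℝ)..1, AA L P.R' (P.k1 b) (P.k1 (b + 1)) (bs g x σ v) =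
        ∫ σ in (0 : ℝ)..1, AA L P.R' (P.k1 0) (P.k1 1) (bs g x σ v) := by
      intro b
      rw [show (fun σ => AA L P.R' (P.k1 b) (P.k1 (b + 1)) (bs g x σ v)) = _ from
        funext fun σ => G.AA_k1_shift L P.R' P g x σ v b]
      rw [intervalIntegral.integral_comp_add_right (fun σ => AA L P.R' (P.k1 0) (P.k1 1) (bs g x σ v)),
        zero_add, add_comm, (G.periodic_AA L P.R' g x v _ _).intervalIntegral_add_eq _ 0, zero_add]
    have hq : (0 : ℝ) < P.q := Nat.cast_pos.2 hP.q_pos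
    have h2 : ∫ σ in (0 : ℝ)..1, rr L P (bs g x σ v) =
        ∫ σ in (0 : ℝ)..1, AA L P.R' (P.k1 0) (P.k1 1) (bs g x σ v) := by
      unfold rr
      rw [intervalIntegral.integral_div, intervalIntegral.integral_finsetSum
        fun b hb => (hk b hb).intervalIntegrable _ _]
      simp only [h1, Finset.sum_const, Finset.card_range, nsmul_eq_mul]
      field_simp
    rw [h2, ← intervalIntegral.integral_const_mul]
    refine intervalIntegral.integral_mono_on zero_le_one (h01.intervalIntegrable _ _)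
      ((continuous_const.mul hp).intervalIntegrable _ _) fun σ hσ => ?_
    rw [← G.AA_p1 L P.R' hP g x hσ hv]
    exact G.AA_triangle L P.R' g x hσ hv (hP.cdf_k1 (Nat.zero_le _)) (hP.cdf_k1 hP.q_pos) hP.cdf_kz
  · have hp := G.continuous_AA L P.R' g x v hP.cdf_kk.adm hP.cdf_kz.adm
    rw [← intervalIntegral.integral_const_mul]
    refine intervalIntegral.integral_mono_on zero_le_one (hro.intervalIntegrable _ _)
      ((continuous_const.mul hp).intervalIntegrable _ _) fun σ hσ => ?_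
    rw [two_mul]
    exact G.AA_triangle L P.R' g x hσ hv hP.cdf_kk hP.cdf_kk hP.cdf_kz

end Crest.Agent.R192
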